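import Vale.Agent.P233.H457.GlueD
import Vale.Agent.P233.H183.BlkD0
import Vale.Agent.P233.H992.BlkD1
import Vale.Agent.P233.H276.BlkD2
import Vale.Agent.P233.H249.BlkD3
import Vale.Agent.P233.H950.BlkD0b
import Vale.Agent.P233.H719.BlkD4
import Vale.Agent.P233.H825.BlkD4c
import Vale.Agent.P233.H719.BlkD5
import Vale.Agent.P233.H134.BlkD7

/-! P233, part D: all blocks of `Gig/IfD.lean` (helper457). -/

set_option linter.all false

open MeasureTheory Filter Topology Set
open scoped ENNReal NNReal MeasureTheory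

universe u

namespace Vale.Agent.P233.PD

theorem blocks : Blocks.{u} where
  d0 := H183.blk_D0
  d1 := H992.blk_D1
  d2 := H276.blk_D2
  d3 := H249.blk_D3
  d0b := blk_D0b
  d4 := H719.blk_D4
  d4c := H825.blk_D4c
  d5 := H719.blk_D5
  d6 := H276.blk_D6
  d7 := H134.blk_D7

/-- Part D, given the standing hypotheses. -/
theorem dout' (M : Type u) [MetricSpace M] [CompleteSpace M] [SecondCountableTopology M]
    [MeasurableSpace M] [BorelSpace M] (m : Measure M) (n : ℕ) (K : ℝ) (h : Sp m n K) :
    DOut m n :=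
  dout blocks.d0 blocks.d1 blocks.d2 blocks.d3 blocks.d0b blocks.d4 blocks.d4c blocks.d5
    blocks.d6 blocks.d7 M m n K h

theorem partD1' (hin : InD.{u}) : Gig.PartD1.{u} := partD1 blocks hin

theorem partD4' (hin : InD.{u}) : Gig.PartD4.{u} := partD4 blocks hin

end Vale.Agent.P233.PD
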