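import Vale.Agent.P233.H457.GlueE
import Vale.Agent.P233.H457.PartD
import Vale.Agent.P233.Gig.IfC

/-! P233: from the interface of part C (`Gig/IfC.lean`) to `PartD1`, `PartD4`, `PartE` of
`Gig/Main.lean` (helper457). -/

set_option linter.all false

open MeasureTheory Filter Topology Set
open scoped ENNReal NNReal MeasureTheory InnerProductSpace

universe u

namespace Vale.Agent.P233.PC

open Vale.Agent.P233.PA (en OutA PotLim)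

/-- The hypotheses of part C (output of parts A and B, helper227), with
`K = min ((n - 1) κ) 0`. -/
def IntoC : Prop := ∀ (M : Type u) [MetricSpace M] [CompleteSpace M] [SecondCountableTopology M]
  [MeasurableSpace M] [BorelSpace M] (n : ℕ) (κ : ℝ), Gig.HypB M n κ →
  ∃ (P : ℝ → (M →ₘ[(μH[n] : Measure M)] ℝ) → (M →ₘ[(μH[n] : Measure M)] ℝ))
    (E : Type) (_ : NormedAddCommGroup E) (_ : InnerProductSpace ℝ E) (_ : CompleteSpace E)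
    (Gr : (M →ₘ[(μH[n] : Measure M)] ℝ) → M → E)
    (V : (M →ₘ[(μH[n] : Measure M)] ℝ) → (M →ₘ[(μH[n] : Measure M)] ℝ) → M → E)
    (D : (M →ₘ[(μH[n] : Measure M)] ℝ) → (M →ₘ[(μH[n] : Measure M)] ℝ))
    (HO : (M →ₘ[(μH[n] : Measure M)] ℝ) → M → E →L[ℝ] E)
    (e : ℕ → M →ₘ[(μH[n] : Measure M)] ℝ),
    EHyp (μH[n] : Measure M) (min ((n - 1) * κ) 0) n Gr V D HO e ∧
    ∀ (p : M) (s₀ C₀ : ℝ), 0 < s₀ → s₀ ≤ 1 → 0 < C₀ →
      CHyp M (μH[n] : Measure M) (min ((n - 1) * κ) 0) n P p s₀ C₀ ∧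
      ∃ (u : ℕ → ℝ → M →ₘ[(μH[n] : Measure M)] ℝ)
        (φ : (M →ₘ[(μH[n] : Measure M)] ℝ) → ℕ → ℝ → M →ₘ[(μH[n] : Measure M)] ℝ),
        OutA (μH[n] : Measure M) (min ((n - 1) * κ) 0) n P p s₀ C₀ u φ ∧
        LevB (μH[n] : Measure M) Gr V D κ u φ

/-- The blocks of part C, together. -/
structure CBlocks : Prop where
  c1 : Blk_C1.{u}
  c2 : Blk_C2.{u}
  c3 : Blk_C3.{u}
  c4 : Blk_C4.{u}
  c4d : Blk_C4D.{u}
  c6a : Blk_C6a.{u}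
  c5 : Blk_C5.{u}
  c6b : Blk_C6b.{u}
  c6 : Blk_C6.{u}
  c7 : Blk_C7.{u}

/-- Everything for one space. -/
theorem cout_all (hb : CBlocks.{u}) (hI : IntoC.{u}) (M : Type u) [MetricSpace M] [CompleteSpace M]
    [SecondCountableTopology M] [MeasurableSpace M] [BorelSpace M] (n : ℕ) (κ : ℝ)
    (h : Gig.HypB M n κ) :
    ∃ (P : ℝ → (M →ₘ[(μH[n] : Measure M)] ℝ) → (M →ₘ[(μH[n] : Measure M)] ℝ))
    (E : Type) (_ : NormedAddCommGroup E) (_ : InnerProductSpace ℝ E) (_ : CompleteSpace E)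
    (Gr : (M →ₘ[(μH[n] : Measure M)] ℝ) → M → E)
    (V : (M →ₘ[(μH[n] : Measure M)] ℝ) → (M →ₘ[(μH[n] : Measure M)] ℝ) → M → E)
    (D : (M →ₘ[(μH[n] : Measure M)] ℝ) → (M →ₘ[(μH[n] : Measure M)] ℝ))
    (HO : (M →ₘ[(μH[n] : Measure M)] ℝ) → M → E →L[ℝ] E)
    (e : ℕ → M →ₘ[(μH[n] : Measure M)] ℝ),
    EHyp (μH[n] : Measure M) (min ((n - 1) * κ) 0) n Gr V D HO e ∧
    ∀ (p : M) (s₀ C₀ : ℝ), 0 < s₀ → s₀ ≤ 1 → 0 < C₀ →
      CHyp M (μH[n] : Measure M) (min ((n - 1) * κ) 0) n P p s₀ C₀ ∧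
      ∃ φ ρ R Y Hs Λ,
        COut (μH[n] : Measure M) (min ((n - 1) * κ) 0) n κ Gr HO e p s₀ C₀ φ ρ R Y Hs Λ := by
  obtain ⟨P, E, i1, i2, i3, Gr, V, D, HO, e, hE, hc⟩ := hI M n κ h
  refine ⟨P, E, i1, i2, i3, Gr, V, D, HO, e, hE, fun p s₀ C₀ h1 h2 h3 => ?_⟩
  obtain ⟨hyp, u, φ, hL, hB⟩ := hc p s₀ C₀ h1 h2 h3
  exact ⟨hyp, cout hb.c1 hb.c2 hb.c3 hb.c4 hb.c6a hb.c5 hb.c6b hb.c6 M _ _ _ κ P p s₀ C₀ hyp E Gr V
    D HO e hE u φ hL hB⟩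

/-- The input of part D. -/
theorem inD_of (hb : CBlocks.{u}) (hI : IntoC.{u}) (h5v : PA.Blk_A5v.{u}) : PD.InD.{u} := by
  intro M _ _ _ _ _ n κ h
  obtain ⟨P, E, i1, i2, i3, Gr, V, D, HO, e, hE, hc⟩ := cout_all hb hI M n κ h
  constructor
  · by_cases hM : Nonempty M
    · obtain ⟨p₀⟩ := hM
      have h0 := (hc p₀ 1 1 one_pos le_rfl one_pos).1
      refine hb.c4d M (μH[n] : Measure M) _ n h0.std h0.hK (fun p =>
        (hc p 1 1 one_pos le_rfl one_pos).1.atom) fun p s₀ C₀ h1 h2 h3 => ?_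
      obtain ⟨φ, ρ, R, Y, Hs, Λ, ho⟩ := (hc p s₀ C₀ h1 h2 h3).2
      exact ⟨φ, ρ, R, Y, ho.lim, ho.maps, ho.flow⟩
    · intro R hR
      exact ⟨0, fun p => (hM ⟨p⟩).elim⟩
  · exact h5v M (μH[n] : Measure M) _ n (PD.std_of_hypB h)

/-- Static data and flows for part E, existential form. -/
def InE' : Prop := ∀ (M : Type u) [MetricSpace M] [CompleteSpace M] [SecondCountableTopology M]
  [MeasurableSpace M] [BorelSpace M] (n : ℕ) (κ : ℝ), Gig.HypB M n κ →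
  ∃ (E : Type) (_ : NormedAddCommGroup E) (_ : InnerProductSpace ℝ E) (_ : CompleteSpace E)
    (Gr : (M →ₘ[(μH[n] : Measure M)] ℝ) → M → E)
    (HO : (M →ₘ[(μH[n] : Measure M)] ℝ) → M → E →L[ℝ] E)
    (e : ℕ → M →ₘ[(μH[n] : Measure M)] ℝ),
    Stat (sob (μH[n] : Measure M)) Gr HO e ∧ HasFlows (μH[n] : Measure M) Gr HO e κ

theorem inE_of (hb : CBlocks.{u}) (hI : IntoC.{u}) : InE'.{u} := by
  intro M _ _ _ _ _ n κ h
  obtain ⟨P, E, i1, i2, i3, Gr, V, D, HO, e, hE, hc⟩ := cout_all hb hI M n κ h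
  refine ⟨E, i1, i2, i3, Gr, HO, e, hE.stat, fun p s₀ C₀ h1 h2 h3 => ?_⟩
  obtain ⟨hyp, φ, ρ, R, Y, Hs, Λ, ho⟩ := hc p s₀ C₀ h1 h2 h3
  exact ⟨Y, _, Λ, hb.c7 M _ _ _ κ P p s₀ C₀ hyp E Gr V D HO e hE φ ρ R Y Hs Λ ho⟩

/-- `PartD1`, `PartD4` -/
theorem partD1_of (hb : CBlocks.{u}) (hI : IntoC.{u}) (h5v : PA.Blk_A5v.{u}) : Gig.PartD1.{u} :=
  PD.partD1' (inD_of hb hI h5v)

theorem partD4_of (hb : CBlocks.{u}) (hI : IntoC.{u}) (h5v : PA.Blk_A5v.{u}) : Gig.PartD4.{u} :=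
  PD.partD4' (inD_of hb hI h5v)

/-- `PartE` -/
theorem partE_of (hb : CBlocks.{u}) (hI : IntoC.{u}) (h5v : PA.Blk_A5v.{u}) (hE : Blk_E.{u}) :
    Gig.PartE.{u} := by
  intro M _ _ _ _ _ n κ h p R hR
  have hd := PD.dout_of_hypB PD.blocks (inD_of hb hI h5v) M n κ h
  have hS := PD.std_of_hypB h
  obtain ⟨E, _, _, _, Gr, HO, e, hst, hF⟩ := inE_of hb hI M n κ h
  haveI : ProperSpace M := hd.geo.proper
  obtain ⟨W, hW1, hW2, hW3⟩ := PD.bridgeE hS hst hd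
  exact hE (μH[n] : Measure M) Gr HO e W _ _ κ hS hst hF hW1 hW2 hW3 p R hR

end Vale.Agent.P233.PC
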