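import Vale.Agent.P233.H825.BlkD4c

/-! P233, part D: continuity of `p ↦ ∇d_p` in `L²` (helper457). -/

set_option linter.all false

open MeasureTheory Filter Topology Set
open scoped ENNReal NNReal

universe u

namespace Vale.Agent.P233

section dir

variable {M : Type*} [MeasurableSpace M] {m : Measure M} {C : Calc m}

/-- Weak convergence in `W` from `L²` convergence and bounded energy. -/
theorem IsDir.E_tendsto_weak (hC : IsDir C) {ι : Type*} {l : Filter ι} {F : ι → M →ₘ[m] ℝ}
    {f g : M →ₘ[m] ℝ} (hF : ∀ᶠ i in l, F i ∈ C.W) (hf : f ∈ C.W) (hg : g ∈ C.W) {B : ℝ}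
    (hB : ∀ᶠ i in l, I (C.Γ (F i) (F i)) ≤ B)
    (h : Tendsto (fun i => I ((F i - f) ^ 2)) l (𝓝 0)) :
    Tendsto (fun i => I (C.Γ (F i) g)) l (𝓝 (I (C.Γ f g))) := by
  rw [Metric.tendsto_nhds]
  intro ε hε
  set A : ℝ := √(2 * max B 0 + 2 * I (C.Γ f f)) + 1 with hA
  have hA0 : 0 < A := by positivity
  -- approximation of `g`
  have h1 := hC.J_tendsto_W hg
  have h2 : ∀ᶠ n : ℕ in atTop, C.nrm2 (C.J ((n : ℝ) + 1)⁻¹ g - g) < (ε / (2 * A)) ^ 2 :=
    h1.eventually_lt_const (by positivity)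
  obtain ⟨n, hn⟩ := h2.exists
  have hl : (0 : ℝ) < ((n : ℝ) + 1)⁻¹ := by positivity
  have hg2 := hC.memLp g hg
  set b := C.J ((n : ℝ) + 1)⁻¹ g with hb
  have hbW : b ∈ C.W := hC.J_mem hl hg2
  have hbL := hC.J_isLap hl hg2
  rw [← hb] at hbL
  set k := (((n : ℝ) + 1)⁻¹)⁻¹ • (b - g) with hk
  have hk2 : MemLp k 2 m := hbL.2.1
  have h3 : Tendsto (fun i => √(I (k ^ 2)) * √(I ((F i - f) ^ 2))) l (𝓝 0) := by
    have := (h.sqrt).const_mul (√(I (k ^ 2)))
    simpa using this
  have h4 : ∀ᶠ i in l, √(I (k ^ 2)) * √(I ((F i - f) ^ 2)) < ε / 2 :=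
    h3.eventually_lt_const (by positivity)
  filter_upwards [hF, hB, h4] with i hFi hBi h4i
  have hd := hC.sub_mem hFi hf
  have e1 : I (C.Γ (F i) g) - I (C.Γ f g) = I (C.Γ (F i - f) g) := by
    rw [hC.Γ_sub_left hFi hf hg, I_sub (hC.Γ_mem1 hFi hg) (hC.Γ_mem1 hf hg)]
  have e2 : I (C.Γ (F i - f) g) = I (C.Γ (F i - f) b) - I (C.Γ (F i - f) (b - g)) := by
    rw [hC.Γ_sub_right hd hbW hg, I_sub (hC.Γ_mem1 hd hbW) (hC.Γ_mem1 hd hg)]
    ring
  have e3 : I (C.Γ (F i - f) b) = -I (k * (F i - f)) := by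
    rw [hC.symm _ hd _ hbW]
    exact hbL.2.2 _ hd
  have b1 : |I (k * (F i - f))| < ε / 2 :=
    (I_abs_le hk2 (hC.memLp _ hd)).trans_lt h4i
  have b2 : |I (C.Γ (F i - f) (b - g))| ≤ A * (ε / (2 * A)) := by
    have hbg := hC.sub_mem hbW hg
    refine (hC.E_abs_le hd hbg).trans ?_
    have c1 : √(I (C.Γ (F i - f) (F i - f))) ≤ A := by
      have c2 : I (C.Γ (F i - f) (F i - f)) ≤ 2 * max B 0 + 2 * I (C.Γ f f) := by
        have := hC.E_nonneg (hC.add_mem _ hFi _ hf)
        rw [hC.E_add hFi hf] at this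
        rw [hC.E_sub hFi hf]
        have hBm : B ≤ max B 0 := le_max_left _ _
        linarith
      have := Real.sqrt_le_sqrt c2
      rw [hA]
      linarith
    have c3 : √(I (C.Γ (b - g) (b - g))) ≤ ε / (2 * A) := by
      rw [Real.sqrt_le_left (by positivity)]
      exact (hC.E_le_nrm2 _).trans hn.le
    exact mul_le_mul c1 c3 (Real.sqrt_nonneg _) hA0.le
  have b3 : A * (ε / (2 * A)) = ε / 2 := by field_simp
  rw [Real.dist_eq, e1, e2, e3]
  have := abs_sub (-I (k * (F i - f))) (I (C.Γ (F i - f) (b - g)))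
  rw [abs_neg] at this
  linarith

/-- Strong convergence in `W` from `L²` convergence and convergence of the energies. -/
theorem IsDir.E_sub_tendsto (hC : IsDir C) {ι : Type*} {l : Filter ι} {F : ι → M →ₘ[m] ℝ}
    {f : M →ₘ[m] ℝ} (hF : ∀ᶠ i in l, F i ∈ C.W) (hf : f ∈ C.W)
    (hE : Tendsto (fun i => I (C.Γ (F i) (F i))) l (𝓝 (I (C.Γ f f))))
    (h : Tendsto (fun i => I ((F i - f) ^ 2)) l (𝓝 0)) :
    Tendsto (fun i => I (C.Γ (F i - f) (F i - f))) l (𝓝 0) := by
  have hB : ∀ᶠ i in l, I (C.Γ (F i) (F i)) ≤ I (C.Γ f f) + 1 :=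
    (hE.eventually_lt_const (by linarith : I (C.Γ f f) < I (C.Γ f f) + 1)).mono fun i h => h.le
  have h1 := hC.E_tendsto_weak hF hf hf hB h
  have h2 : Tendsto (fun i => I (C.Γ (F i) (F i)) - 2 * I (C.Γ (F i) f) + I (C.Γ f f)) l (𝓝 0) := by
    have := (hE.sub (h1.const_mul 2)).add_const (I (C.Γ f f))
    convert this using 2
    ring
  refine h2.congr' ?_
  filter_upwards [hF] with i hi
  rw [hC.E_sub hi hf]

end dir

namespace H457

open PD
open H825 (dp_mem dp_ae)

variable {M : Type u} [MetricSpace M] [MeasurableSpace M] [BorelSpace M]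
  [SecondCountableTopology M] {m : Measure M}

theorem Γ_self_zero_of (hfin : ∀ (x : M) (r : ℝ), m (Metric.ball x r) < ∞) (p : M) (R c : ℝ) :
    ∀ᵐ x ∂m, dtr p R x = c → (sob m).Γ (dp m p R) (dp m p R) x = 0 := by
  have h := dp_mem hfin p R
  filter_upwards [sob_Γ_self_ae h, Met.mslope_eq_zero_of_eq_const (mem_sob_iff.1 h) c,
    dp_ae m p R] with x h1 h2 h3 hc
  rw [h1, h2 (by rw [h3, hc])]
  simp

/-- Spheres are null sets. -/
theorem _root_.Vale.Agent.P233.PD.UnitGrad.sphere (hfin : ∀ (x : M) (r : ℝ), m (Metric.ball x r) < ∞) (h : UnitGrad m)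
    (p : M) (R : ℝ) : ∀ᵐ x ∂m, dist p x ≠ R := by
  filter_upwards [h p (R + 1), Γ_self_zero_of hfin p (R + 1) (R - (R + 1))] with x h1 h2 hx
  have h3 := h2 (by unfold dtr; rw [min_eq_left (by rw [hx]; linarith), hx])
  rw [h1 (by rw [hx]; linarith)] at h3
  exact one_ne_zero h3

theorem _root_.Vale.Agent.P233.PD.UnitGrad.self (hfin : ∀ (x : M) (r : ℝ), m (Metric.ball x r) < ∞) (h : UnitGrad m)
    (p : M) (R : ℝ) : ∀ᵐ x ∂m, (sob m).Γ (dp m p R) (dp m p R) x
      = (Metric.ball p R).indicator (fun _ => (1 : ℝ)) x := by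
  filter_upwards [h p R, Γ_self_zero_of hfin p R 0] with x h1 h2
  by_cases hx : dist p x < R
  · rw [h1 hx, indicator_of_mem (by rwa [Metric.mem_ball'])]
  · rw [indicator_of_notMem (by rwa [Metric.mem_ball'])]
    apply h2
    unfold dtr
    rw [min_eq_right (not_lt.1 hx), sub_self]

theorem dtr_sub_le (p q x : M) (R : ℝ) : |dtr q R x - dtr p R x| ≤ dist q p := by
  unfold dtr
  have e : min (dist q x) R - R - (min (dist p x) R - R) = min (dist q x) R - min (dist p x) R := by
    ring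
  rw [e]
  refine (abs_min_sub_min_le_max _ _ _ _).trans ?_
  rw [sub_self, abs_zero]
  refine max_le ?_ dist_nonneg
  exact abs_dist_sub_le q p x

theorem dtr_eq_zero {p x : M} {R : ℝ} (h : R ≤ dist p x) : dtr p R x = 0 := by
  unfold dtr
  rw [min_eq_right h, sub_self]

/-- `p ↦ d_p` is continuous in `L²`. -/
theorem dp_tendsto_L2 (hfin : ∀ (x : M) (r : ℝ), m (Metric.ball x r) < ∞) (p : M) (R : ℝ) :
    Tendsto (fun q => I ((dp m q R - dp m p R) ^ 2)) (𝓝 p) (𝓝 0) := by
  have hbm : MeasurableSet (Metric.ball p (R + 1)) := Metric.isOpen_ball.measurableSet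
  have h1 : ∀ᶠ q in 𝓝 p, I ((dp m q R - dp m p R) ^ 2)
      ≤ m.real (Metric.ball p (R + 1)) * dist q p ^ 2 := by
    filter_upwards [Metric.ball_mem_nhds p one_pos] with q hq
    rw [Metric.mem_ball] at hq
    have h2 : I ((dp m q R - dp m p R) ^ 2)
        ≤ ∫ x, (Metric.ball p (R + 1)).indicator (fun _ => dist q p ^ 2) x ∂m := by
      refine integral_mono_of_nonneg (nonneg_iff_ae.1 (sq_nonneg' _)) ?_ ?_
      · rw [integrable_indicator_iff hbm]
        exact integrableOn_const (hfin p (R + 1)).ne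
      · filter_upwards [sq_ae (dp m q R - dp m p R), sub_ae (dp m q R) (dp m p R), dp_ae m q R,
          dp_ae m p R] with x a1 a2 a3 a4
        rw [a1, a2, a3, a4]
        by_cases hx : x ∈ Metric.ball p (R + 1)
        · rw [indicator_of_mem hx]
          exact sq_le_sq' (by linarith [neg_abs_le (dtr q R x - dtr p R x), dtr_sub_le p q x R])
            ((le_abs_self _).trans (dtr_sub_le p q x R))
        · rw [indicator_of_notMem hx]
          rw [Metric.mem_ball', not_lt] at hx
          have hx2 : R ≤ dist q x := by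
            have := dist_triangle_left p x q
            linarith
          rw [dtr_eq_zero hx2, dtr_eq_zero (by linarith : R ≤ dist p x)]
          simp
    rw [integral_indicator_const _ hbm] at h2
    exact h2
  have h2 : Tendsto (fun q => m.real (Metric.ball p (R + 1)) * dist q p ^ 2) (𝓝 p) (𝓝 0) := by
    have h3 : Continuous fun q : M => m.real (Metric.ball p (R + 1)) * dist q p ^ 2 := by
      fun_prop
    have := h3.tendsto p
    simpa using this
  exact tendsto_of_tendsto_of_tendsto_of_le_of_le' tendsto_const_nhds h2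
    (Eventually.of_forall fun q => I_sq_nonneg _) h1

/-- the energies converge -/
theorem _root_.Vale.Agent.P233.PD.UnitGrad.E_tendsto (hfin : ∀ (x : M) (r : ℝ), m (Metric.ball x r) < ∞) (h : UnitGrad m)
    (p : M) (R : ℝ) : Tendsto (fun q => I ((sob m).Γ (dp m q R) (dp m q R))) (𝓝 p)
      (𝓝 (I ((sob m).Γ (dp m p R) (dp m p R)))) := by
  have e : ∀ q, I ((sob m).Γ (dp m q R) (dp m q R))
      = ∫ x, (Metric.ball q R).indicator (fun _ => (1 : ℝ)) x ∂m := fun q =>
    integral_congr_ae (h.self hfin q R)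
  simp only [e]
  have hbm : MeasurableSet (Metric.ball p (R + 1)) := Metric.isOpen_ball.measurableSet
  refine tendsto_integral_filter_of_dominated_convergence
    ((Metric.ball p (R + 1)).indicator fun _ => (1 : ℝ)) (Eventually.of_forall fun q => ?_) ?_ ?_ ?_
  · exact (measurable_const.indicator Metric.isOpen_ball.measurableSet).aestronglyMeasurable
  · filter_upwards [Metric.ball_mem_nhds p one_pos] with q hq
    refine Eventually.of_forall fun x => ?_
    rw [Metric.mem_ball] at hq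
    by_cases hx : x ∈ Metric.ball q R
    · have hx2 : x ∈ Metric.ball p (R + 1) := by
        rw [Metric.mem_ball] at hx ⊢
        have := dist_triangle x q p
        linarith
      rw [indicator_of_mem hx, indicator_of_mem hx2]
      simp
    · rw [indicator_of_notMem hx]
      simp only [norm_zero]
      exact indicator_nonneg (fun _ _ => zero_le_one) x
  · rw [integrable_indicator_iff hbm]
    exact integrableOn_const (hfin p (R + 1)).ne
  · filter_upwards [h.sphere hfin p R] with x hx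
    have hc : Continuous fun q : M => dist q x := by fun_prop
    rcases lt_or_gt_of_ne hx with hx | hx
    · have h1 : ∀ᶠ q in 𝓝 p, dist q x < R := hc.tendsto p |>.eventually_lt_const hx
      refine tendsto_const_nhds.congr' ?_
      filter_upwards [h1] with q hq
      rw [indicator_of_mem (by rwa [Metric.mem_ball']), indicator_of_mem (by rwa [Metric.mem_ball'])]
    · have h1 : ∀ᶠ q in 𝓝 p, R < dist q x := hc.tendsto p |>.eventually_const_lt hx
      refine tendsto_const_nhds.congr' ?_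
      filter_upwards [h1] with q hq
      rw [indicator_of_notMem (by rw [Metric.mem_ball', not_lt]; exact hx.le),
        indicator_of_notMem (by rw [Metric.mem_ball', not_lt]; exact hq.le)]

/-- `p ↦ ∇d_p` is continuous in `L²`. -/
theorem _root_.Vale.Agent.P233.PD.UnitGrad.cont (hD : IsDir (sob m)) (hfin : ∀ (x : M) (r : ℝ), m (Metric.ball x r) < ∞)
    (h : UnitGrad m) (p : M) (R : ℝ) :
    Tendsto (fun q => I ((sob m).Γ (dp m q R - dp m p R) (dp m q R - dp m p R))) (𝓝 p) (𝓝 0) :=
  hD.E_sub_tendsto (Eventually.of_forall fun q => dp_mem hfin q R) (dp_mem hfin p R)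
    (h.E_tendsto hfin p R) (dp_tendsto_L2 hfin p R)

end H457

end Vale.Agent.P233
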