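import Vale.Agent.P233.H457.Cont
import Vale.Agent.P233.Gig.IfE

/-! P233: from the outputs of part D (`Gig/IfD.lean`) to the inputs of part E (`Gig/IfE.lean`)
(helper457). -/

set_option linter.all false

open MeasureTheory Filter Topology Set
open scoped ENNReal NNReal InnerProductSpace

universe u v

namespace Vale.Agent.P233.H457

open PD
open H825 (dp_mem dp_ae)

variable {M : Type u} [MetricSpace M] [MeasurableSpace M] [BorelSpace M]
  [SecondCountableTopology M] {m : Measure M}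
variable {E : Type v} [NormedAddCommGroup E] [InnerProductSpace ℝ E]
  {Gr : (M →ₘ[m] ℝ) → M → E} {HO : (M →ₘ[m] ℝ) → M → E →L[ℝ] E} {e : ℕ → M →ₘ[m] ℝ}

theorem std_isGamma {K N : ℝ} (h : Std m K N) : IsGamma (sob m) :=
  isGamma_sob h.hfin h.rcd.quadratic h.rcd.sobolev_to_lipschitz

theorem testI_W {f : M →ₘ[m] ℝ} (h : f ∈ (sob m).TestI) : f ∈ (sob m).W :=
  h.1.2.choose_spec.1.1

/-- Linear combinations of gradients. -/
theorem sq_norm_cmr (w : ℕ → E) (c : ℕ →₀ ℝ) :
    ‖cmr w c‖ ^ 2 = c.sum fun i a => c.sum fun j b => a * b * ⟪w i, w j⟫_ℝ := by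
  rw [← real_inner_self_eq_norm_sq]
  unfold cmr
  rw [Finsupp.sum, sum_inner]
  simp only [inner_sum, real_inner_smul_left, real_inner_smul_right, Finsupp.sum]
  refine Finset.sum_congr rfl fun i _ => Finset.sum_congr rfl fun j _ => by ring

/-- number of coefficients -/
noncomputable def len (c : ℕ →₀ ℝ) : ℕ := c.support.sup id + 1

theorem supp_subset (c : ℕ →₀ ℝ) : c.support ⊆ Finset.range (len c) := by
  intro i hi
  rw [Finset.mem_range]
  have : id i ≤ c.support.sup id := Finset.le_sup hi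
  unfold len
  simp only [id] at this
  omega

theorem cmr_eq_range {V : Type*} [AddCommGroup V] [Module ℝ V] (w : ℕ → V) (c : ℕ →₀ ℝ) :
    cmr w c = ∑ i ∈ Finset.range (len c), c i • w i := by
  unfold cmr
  exact Finsupp.sum_of_support_subset c (supp_subset c) _ (by simp)

/-- The existence of Lipschitz representatives and of everything else in `TFam`. -/
theorem exists_tfam {f : ℕ → M →ₘ[m] ℝ} (hC : IsDir (sob m))
    (hf : ∀ i, f i ∈ (sob m).TestI) {g : ℕ → M → M → ℝ} (hg : ∀ i, IsVer m (f i) (g i)) :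
    ∃ b, TFam m f b (fun i j => (sob m).Γ (f i) (f j)) g := by
  have h1 : ∀ i, ∃ u : M → ℝ, LW m (f i) u := by
    intro i
    obtain ⟨u, h1, h2, h3⟩ := (hf i).1.1
    exact ⟨u, testI_W (hf i), h1, h3⟩
  choose b hb using h1
  exact ⟨b, hf, hb, fun i j => (AEEqFun.stronglyMeasurable _).measurable,
    fun i j => EventuallyEq.rfl, hg⟩

theorem qf_eq (hst : IsGrad (sob m) Gr) (hC : IsDir (sob m)) (he : ∀ i, e i ∈ (sob m).TestI) :
    ∀ᵐ x ∂m, ∀ c : ℕ →₀ ℝ, qf (fun i j => (sob m).Γ (e i) (e j)) (len c) c x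
      = ‖cmr (fun i => Gr (e i) x) c‖ ^ 2 := by
  have h1 : ∀ᵐ x ∂m, ∀ i j, ⟪Gr (e i) x, Gr (e j) x⟫_ℝ = (sob m).Γ (e i) (e j) x := by
    rw [ae_all_iff]; intro i
    rw [ae_all_iff]; intro j
    exact hst.inner _ (testI_W (he i)) _ (testI_W (he j))
  filter_upwards [h1] with x h1 c
  rw [cmr_eq_range, ← real_inner_self_eq_norm_sq, sum_inner]
  unfold qf
  simp only [inner_sum, real_inner_smul_left, real_inner_smul_right, h1]
  refine Finset.sum_congr rfl fun i _ => Finset.sum_congr rfl fun j _ => by ring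

/-- continuity of `p ↦ ∇d_p` in `L²`, for the vector fields -/
theorem gr_cont (hst : IsGrad (sob m) Gr) (hC : IsDir (sob m))
    (hfin : ∀ (x : M) (r : ℝ), m (Metric.ball x r) < ∞) (hu : UnitGrad m) (p : M) (R : ℝ) :
    Tendsto (fun q => ∫⁻ x, ENNReal.ofReal
      (‖Gr (cl m (dtr q R)) x - Gr (cl m (dtr p R)) x‖ ^ 2) ∂m) (𝓝 p) (𝓝 0) := by
  have h1 := hu.cont hC hfin p R
  have h2 := ENNReal.tendsto_ofReal h1
  rw [ENNReal.ofReal_zero] at h2
  refine h2.congr fun q => ?_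
  have hq := dp_mem hfin q R
  have hp := dp_mem hfin p R
  have hqp := hC.sub_mem hq hp
  unfold I
  rw [ofReal_integral_eq_lintegral_ofReal (int_of_mem (hC.Γ_mem1 hqp hqp))
    (nonneg_iff_ae.1 (hC.nonneg _ hqp))]
  refine lintegral_congr_ae ?_
  have e1 := hC.Γ_sub_left hq hp hqp
  have e2 := hC.Γ_sub_right hq hq hp
  have e3 := hC.Γ_sub_right hp hq hp
  filter_upwards [hst.inner _ hq _ hq, hst.inner _ hq _ hp, hst.inner _ hp _ hq,
    hst.inner _ hp _ hp, sub_ae ((sob m).Γ (dp m q R) (dp m q R - dp m p R))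
      ((sob m).Γ (dp m p R) (dp m q R - dp m p R)),
    sub_ae ((sob m).Γ (dp m q R) (dp m q R)) ((sob m).Γ (dp m q R) (dp m p R)),
    sub_ae ((sob m).Γ (dp m p R) (dp m q R)) ((sob m).Γ (dp m p R) (dp m p R))]
    with x a1 a2 a3 a4 a5 a6 a7
  rw [e1, a5, e2, e3, a6, a7, ← a1, ← a2, ← a3, ← a4]
  congr 1
  change _ = ‖Gr (dp m q R) x - Gr (dp m p R) x‖ ^ 2
  rw [← real_inner_self_eq_norm_sq, inner_sub_left, inner_sub_right, inner_sub_right]

/-- D0 in the form of part E. -/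
theorem jointW_of (hst : IsGrad (sob m) Gr) (hC : IsDir (sob m))
    (hfin : ∀ (x : M) (r : ℝ), m (Metric.ball x r) < ∞)
    (he : ∀ i, e i ∈ (sob m).TestI) (hu : UnitGrad m) {W : ℕ → M → M → ℝ}
    (hW : ∀ i, IsVer m (e i) (W i)) : JointW Gr e W where
  meas := fun i => (hW i).1
  eq := by
    intro i p R hR
    filter_upwards [(hW i).2 p R, hst.inner _ (testI_W (he i)) _ (dp_mem hfin p R)] with x h1 h2 hx
    rw [h1 hx, ← h2]
    rfl
  unit := by
    intro p R hR
    filter_upwards [hu p R, hst.inner _ (dp_mem hfin p R) _ (dp_mem hfin p R)] with x h1 h2 hx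
    have h3 := h2.trans (h1 hx)
    rw [real_inner_self_eq_norm_sq] at h3
    have h4 := norm_nonneg (Gr (dp m p R) x)
    change ‖Gr (dp m p R) x‖ = 1
    nlinarith
  cont := fun p R hR => gr_cont hst hC hfin hu p R

/-- D6 in the form of part E. -/
theorem smallBalls_of (hst : IsGrad (sob m) Gr) (hC : IsDir (sob m))
    (he : ∀ i, e i ∈ (sob m).TestI) (h : PD.SmallBalls m) {W : ℕ → M → M → ℝ}
    (hW : ∀ i, IsVer m (e i) (W i)) : P233.SmallBalls Gr e W := by
  intro x₀ R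
  obtain ⟨A, hA⟩ := h x₀ R
  obtain ⟨b, hT⟩ := exists_tfam hC he hW
  refine ⟨A, ?_⟩
  filter_upwards [hA _ _ _ _ hT, qf_eq hst hC he] with x h1 h2 hx c hc ε hε
  have h3 := h1 hx (len c) c (by rw [h2, hc, one_pow]) ε hε
  refine le_trans (le_of_eq ?_) h3
  congr 1
  ext p
  simp only [mem_setOf_eq, cmr_eq_range, smul_eq_mul]

/-- D7 in the form of part E. -/
theorem finRank_of (hst : IsGrad (sob m) Gr) (hC : IsDir (sob m))
    (he : ∀ i, e i ∈ (sob m).TestI) (h : PD.FinRank m) {W : ℕ → M → M → ℝ}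
    (hW : ∀ i, IsVer m (e i) (W i)) : P233.FinRank Gr e := by
  intro x₀ R
  obtain ⟨N₀, hA⟩ := h x₀ R
  obtain ⟨b, hT⟩ := exists_tfam hC he hW
  refine ⟨N₀, ?_⟩
  have h1 : ∀ᵐ x ∂m, ∀ i j, ⟪Gr (e i) x, Gr (e j) x⟫_ℝ = (sob m).Γ (e i) (e j) x := by
    rw [ae_all_iff]; intro i
    rw [ae_all_iff]; intro j
    exact hst.inner _ (testI_W (he i)) _ (testI_W (he j))
  filter_upwards [hA _ _ _ _ hT, h1] with x h2 h1 hx s hs
  by_contra hne
  have hli : LinearIndependent ℝ (fun i : s => Gr (e i) x) := by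
    rw [← Matrix.det_gram_ne_zero_iff_linearIndependent]
    exact hne
  have h3 := hli.comp (fun a : Fin (N₀ + 1) => (s.equivFinOfCardEq hs).symm a)
    (Equiv.injective _)
  have h4 := Matrix.posDef_gram_of_linearIndependent h3
  have h5 := h2 hx (N₀ + 1) (fun a => ((s.equivFinOfCardEq hs).symm a : ℕ)) (by
    have e1 : (Matrix.of fun a a' : Fin (N₀ + 1) =>
        (sob m).Γ (e ((s.equivFinOfCardEq hs).symm a : ℕ))
          (e ((s.equivFinOfCardEq hs).symm a' : ℕ)) x)
        = Matrix.gram ℝ ((fun i : s => Gr (e i) x) ∘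
          fun a : Fin (N₀ + 1) => (s.equivFinOfCardEq hs).symm a) := by
      ext a a'
      rw [Matrix.of_apply, Matrix.gram_apply, ← h1]
      rfl
    rw [e1]
    exact h4)
  omega

/-- Everything that part E needs from part D. -/
theorem _root_.Vale.Agent.P233.PD.bridgeE {n : ℕ} {K : ℝ} (hS : Std m K n) (hst : Stat (sob m) Gr HO e) (hd : DOut m n) :
    ∃ W, JointW Gr e W ∧ P233.SmallBalls Gr e W ∧ P233.FinRank Gr e := by
  have hC : IsDir (sob m) := (std_isGamma hS).toIsDir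
  have h1 : ∀ i, ∃ g, IsVer m (e i) g := fun i => hd.ver _ (testI_W (hst.testI i))
  choose W hW using h1
  exact ⟨W, jointW_of hst.grad hC hS.hfin hst.testI hd.unit hW,
    smallBalls_of hst.grad hC hst.testI hd.small hW,
    finRank_of hst.grad hC hst.testI hd.rank hW⟩

end Vale.Agent.P233.H457
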