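import Vale.Agent.P233.Gig.IfD
import Vale.Agent.P233.Gig.Main

/-! P233, part D: from the blocks of `Gig/IfD.lean` to `PartD1` and `PartD4` of `Gig/Main.lean`. -/

set_option linter.all false

open MeasureTheory Filter Topology Set
open scoped ENNReal NNReal MeasureTheory

universe u

namespace Vale.Agent.P233.PD

/-- What part D needs from the other parts: contraction maps and approximate geodesics. -/
def InD : Prop := ∀ (M : Type u) [MetricSpace M] [CompleteSpace M] [SecondCountableTopology M]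
  [MeasurableSpace M] [BorelSpace M] (n : ℕ) (κ : ℝ), Gig.HypB M n κ →
    HasContr (μH[n] : Measure M) n ∧ IsLen M

/-- `Std` from the statement-level `RCD` condition. -/
theorem std_of_T {M : Type u} [MetricSpace M] [SecondCountableTopology M]
    [MeasurableSpace M] [BorelSpace M] {m : Measure M} (hfull : m.IsOpenPosMeasure) {K N : ℝ}
    (hN : 0 < N) (h : T.IsRCD m K N) : Std m K N := by
  have hR := isRCD_of_S (T_rcd h)
  exact ⟨hfull, hN, hR, ball_lt_top_of_growth hR.growth⟩

theorem std_of_hypB {M : Type u} [MetricSpace M] [SecondCountableTopology M]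
    [MeasurableSpace M] [BorelSpace M] {n : ℕ} {κ : ℝ} (h : Gig.HypB M n κ) :
    Std (μH[n] : Measure M) ((n - 1) * κ) n :=
  std_of_T h.full (by have := h.two_le; positivity) h.rcd

theorem sp_of_hypB {M : Type u} [MetricSpace M] [SecondCountableTopology M]
    [MeasurableSpace M] [BorelSpace M] {n : ℕ} {κ : ℝ} (h : Gig.HypB M n κ)
    (hc : HasContr (μH[n] : Measure M) n) (hl : IsLen M) :
    Sp (μH[n] : Measure M) n ((n - 1) * κ) :=
  ⟨std_of_hypB h, rfl, hc, hl⟩

/-- The blocks of part D, together. -/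
structure Blocks : Prop where
  d0 : Blk_D0.{u}
  d1 : Blk_D1.{u}
  d2 : Blk_D2.{u}
  d3 : Blk_D3.{u}
  d0b : Blk_D0b.{u}
  d4 : Blk_D4.{u}
  d4c : Blk_D4c.{u}
  d5 : Blk_D5.{u}
  d6 : Blk_D6.{u}
  d7 : Blk_D7.{u}

theorem dout_of_hypB (hb : Blocks.{u}) (hin : InD.{u}) (M : Type u) [MetricSpace M]
    [CompleteSpace M] [SecondCountableTopology M] [MeasurableSpace M] [BorelSpace M] (n : ℕ)
    (κ : ℝ) (h : Gig.HypB M n κ) : DOut (μH[n] : Measure M) n :=
  dout hb.d0 hb.d1 hb.d2 hb.d3 hb.d0b hb.d4 hb.d4c hb.d5 hb.d6 hb.d7 M _ n _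
    (sp_of_hypB h (hin M n κ h).1 (hin M n κ h).2)

theorem partD1 (hb : Blocks.{u}) (hin : InD.{u}) : Gig.PartD1.{u} := by
  intro M _ _ _ _ _ n κ h
  have hd := dout_of_hypB hb hin M n κ h
  exact ⟨hd.geo.proper, hd.geo.geod⟩

theorem partD4 (hb : Blocks.{u}) (hin : InD.{u}) : Gig.PartD4.{u} := by
  intro M _ _ _ _ _ n κ h
  exact (dout_of_hypB hb hin M n κ h).fvar

end Vale.Agent.P233.PD
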