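import Vale.Agent.P233.H457.BridgeE
import Vale.Agent.P233.H457.GlueD

/-! P233: `PartE` of `Gig/Main.lean` from the blocks of part D, the static data (`Blk_T1`), the flows
(`InE`, output of parts A–C) and the assembly `Blk_E` of part E (helper457). -/

set_option linter.all false

open MeasureTheory Filter Topology Set
open scoped ENNReal NNReal MeasureTheory InnerProductSpace

universe u

namespace Vale.Agent.P233.PD

/-- What part E needs from parts A–C: flows for all centres, for given static data. -/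
def InE : Prop := ∀ (M : Type u) [MetricSpace M] [CompleteSpace M] [SecondCountableTopology M]
  [MeasurableSpace M] [BorelSpace M] (n : ℕ) (κ : ℝ), Gig.HypB M n κ →
  ∀ (E : Type) [NormedAddCommGroup E] [InnerProductSpace ℝ E] [CompleteSpace E]
    (Gr : (M →ₘ[(μH[n] : Measure M)] ℝ) → M → E)
    (HO : (M →ₘ[(μH[n] : Measure M)] ℝ) → M → E →L[ℝ] E)
    (e : ℕ → M →ₘ[(μH[n] : Measure M)] ℝ),
    Stat (sob (μH[n] : Measure M)) Gr HO e → HasFlows (μH[n] : Measure M) Gr HO e κ

theorem partE (hb : Blocks.{u}) (hin : InD.{u}) (hT1 : Blk_T1.{u}) (hF : InE.{u})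
    (hE : Blk_E.{u}) : Gig.PartE.{u} := by
  intro M _ _ _ _ _ n κ h p R hR
  have hd := dout_of_hypB hb hin M n κ h
  have hS := std_of_hypB h
  obtain ⟨E, _, _, _, Gr, HO, e, hst⟩ := hT1 (μH[n] : Measure M) _ _ hS
  haveI : ProperSpace M := hd.geo.proper
  obtain ⟨W, hW1, hW2, hW3⟩ := bridgeE hS hst hd
  exact hE (μH[n] : Measure M) Gr HO e W _ _ κ hS hst (hF M n κ h E Gr HO e hst) hW1 hW2 hW3 p R hR

end Vale.Agent.P233.PD
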